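import Vale.Agent.P088.R2.H850.E.Ws
import Vale.Agent.P088.R2.H165.Tab
import Vale.Agent.P088.R2.H509.E.PT

/-!
# P088, stage 3, rows GAIN: the gain inequality for the letters

For each letter `M` of the table the inequality `b (F + L + 1) ≤ lw M z` (`F` a value of
`Γ(W, W)`, `L` a bound of `|Λ W|`) is reduced to pointwise bounds of `F`, `L`.
-/

open Set

noncomputable section

namespace Vale.Agent.P088.R2.H935.G

open Vale.Agent.P088.R2.H961.GW Vale.Agent.P088.R2.H551.E Vale.Agent.P088.R2.H850.E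
open Vale.Agent.P088.R2.H165.Tab

variable {E : Type*} [NormedAddCommGroup E] {ν : Nu E} {c s b F L C : ℝ} {z : E}

/-- Region 0: `F, L ≤ C N²`. -/
theorem g_M0 (hc : 0 ≤ c) (hs : 0 ≤ s) (hE : 0 ≤ ν.En z) (hN : 1 ≤ ν.N z) (hb : 0 ≤ b)
    (hC : 0 ≤ C) (hF : F ≤ C * ν.N z ^ 2) (hL : L ≤ C * ν.N z ^ 2)
    (h : b * (2 * C + 1) ≤ c * s * ν.N z) : b * (F + L + 1) ≤ lw (M0 ν c s) z := by
  have hN0 : 0 ≤ ν.N z := zero_le_one.trans hN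
  have e1 : lw (M0 ν c s) z = c * ((ν.En z + s * ν.N z) * ν.N z ^ 2) := by
    unfold lw M0
    simp
  rw [e1]
  have h1 : F + L + 1 ≤ (2 * C + 1) * ν.N z ^ 2 := by nlinarith
  have h2 : b * (F + L + 1) ≤ b * ((2 * C + 1) * ν.N z ^ 2) := mul_le_mul_of_nonneg_left h1 hb
  have h3 : b * (2 * C + 1) * ν.N z ^ 2 ≤ c * s * ν.N z * ν.N z ^ 2 :=
    mul_le_mul_of_nonneg_right h (sq_nonneg _)
  have h4 : 0 ≤ c * (ν.En z * ν.N z ^ 2) := by positivity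
  nlinarith

/-- Region I: `F, L ≤ C (N² + E (1 + m))`, `m ≤ C N`, `N ≤ C E`. -/
theorem g_MI (hc : 0 < c) (hE : 1 ≤ ν.En z) (hm : 0 ≤ ν.m z) (hN : 1 ≤ ν.N z) (hb : 0 ≤ b)
    (hC : 1 ≤ C) (hF : F ≤ C * (ν.N z ^ 2 + ν.En z * (1 + ν.m z)))
    (hL : L ≤ C * (ν.N z ^ 2 + ν.En z * (1 + ν.m z))) (hmN : ν.m z ≤ C * ν.N z)
    (hNE : ν.N z ≤ C * ν.En z) (f1 : 0 ≤ ν.F₁ z) (f2 : 0 ≤ ν.F₂ z)
    (h : b * (54 * C ^ 3) ≤ c) : b * (F + L + 1) ≤ lw (MI ν c) z := by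
  have hE0 : 0 < ν.En z := by linarith
  have hN0 : 0 < ν.N z := by linarith
  set X := ν.En z * (1 + ν.m z) + ν.N z ^ 2 with hX
  have hX0 : 0 < X := by positivity
  have w1 : ν.wI z = ν.N z ^ 2 * ν.En z ^ 2 / X := rfl
  have w2 : ν.wI z ≤ ν.En z ^ 2 := by
    rw [w1, div_le_iff₀ hX0]
    nlinarith [mul_nonneg (sq_nonneg (ν.En z)) (mul_nonneg hE0.le (by linarith : 0 ≤ 1 + ν.m z))]
  have w0 : 0 ≤ ν.wI z := by rw [w1]; positivity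
  have e1 : lw (MI ν c) z = min (c * ν.F₁ z) (c * ν.F₂ z) +
      2 * min (c * ν.En z ^ 2) (c * ν.wI z) := rfl
  have e2 : min (c * ν.En z ^ 2) (c * ν.wI z) = c * ν.wI z :=
    min_eq_right (mul_le_mul_of_nonneg_left w2 hc.le)
  have e3 : 0 ≤ min (c * ν.F₁ z) (c * ν.F₂ z) := le_min (by positivity) (by positivity)
  rw [e1, e2]
  -- `X ≤ 3 C E N · ...`
  have x1 : ν.En z * (1 + ν.m z) ≤ 2 * C * (ν.En z * ν.N z) := by
    have : 1 + ν.m z ≤ 2 * C * ν.N z := by nlinarith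
    calc ν.En z * (1 + ν.m z) ≤ ν.En z * (2 * C * ν.N z) := mul_le_mul_of_nonneg_left this hE0.le
      _ = _ := by ring
  have x2 : ν.N z ^ 2 ≤ C * (ν.En z * ν.N z) := by nlinarith
  have x3 : X ≤ 3 * C * (ν.En z * ν.N z) := by rw [hX]; linarith
  have x4 : 1 ≤ X := by
    rw [hX]
    nlinarith [mul_nonneg hE0.le hm]
  have x5 : F + L + 1 ≤ 3 * C * X := by
    have : ν.N z ^ 2 + ν.En z * (1 + ν.m z) = X := by rw [hX]; ring
    rw [this] at hF hL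
    nlinarith
  have x6 : X ^ 2 ≤ 9 * C ^ 2 * (ν.En z * ν.N z) ^ 2 := by
    have := pow_le_pow_left₀ hX0.le x3 2
    calc X ^ 2 ≤ (3 * C * (ν.En z * ν.N z)) ^ 2 := this
      _ = _ := by ring
  have x7 : b * (3 * C * X) ≤ 2 * (c * ν.wI z) := by
    rw [w1, mul_div_assoc', mul_div_assoc', le_div_iff₀ hX0]
    have h9 : b * (27 * C ^ 3) * (ν.En z * ν.N z) ^ 2 ≤ c * (ν.En z * ν.N z) ^ 2 :=
      mul_le_mul_of_nonneg_right (by nlinarith [pow_nonneg (by linarith : (0:ℝ) ≤ C) 3]) (sq_nonneg _)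
    have h10 : b * (3 * C * X) * X = 3 * b * C * X ^ 2 := by ring
    have h11 : 3 * b * C * X ^ 2 ≤ 3 * b * C * (9 * C ^ 2 * (ν.En z * ν.N z) ^ 2) :=
      mul_le_mul_of_nonneg_left x6 (by positivity)
    have h12 : 3 * b * C * (9 * C ^ 2 * (ν.En z * ν.N z) ^ 2) =
        b * (27 * C ^ 3) * (ν.En z * ν.N z) ^ 2 := by ring
    have h13 : 0 ≤ c * (ν.En z * ν.N z) ^ 2 := by positivity
    have h14 : 2 * (c * (ν.N z ^ 2 * ν.En z ^ 2)) = 2 * (c * (ν.En z * ν.N z) ^ 2) := by ring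
    rw [h10, h14]
    linarith
  have x8 : b * (F + L + 1) ≤ b * (3 * C * X) := mul_le_mul_of_nonneg_left x5 hb
  linarith

/-- Zone II: `F, L ≤ C f`, `1 ≤ C f`, `f ≤ C F₁`, `f ≤ C F₂`. -/
theorem g_MII {f : ℝ} (hb : 0 ≤ b) (hC : 1 ≤ C) (hk : 1 ≤ ν.k z) (hF : F ≤ C * f) (hL : L ≤ C * f)
    (h1 : 1 ≤ C * f) (f1 : f ≤ C * ν.F₁ z) (f2 : f ≤ C * ν.F₂ z)
    (h : b * (12 * C ^ 2) ≤ 1) : b * (F + L + 1) ≤ lw (MII ν) z := by
  have hC0 : 0 < C := by linarith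
  have hf : 0 < f := by
    by_contra hc
    have : C * f ≤ 0 := mul_nonpos_of_nonneg_of_nonpos hC0.le (not_lt.1 hc)
    linarith
  have F10 : 0 ≤ ν.F₁ z := by
    by_contra hc
    have : C * ν.F₁ z ≤ 0 := mul_nonpos_of_nonneg_of_nonpos hC0.le (not_le.1 hc).le
    linarith
  have F20 : 0 ≤ ν.F₂ z := by
    by_contra hc
    have : C * ν.F₂ z ≤ 0 := mul_nonpos_of_nonneg_of_nonpos hC0.le (not_le.1 hc).le
    linarith
  have e1 : lw (MII ν) z = min (1 / 4 * (ν.k z * ν.F₁ z)) (1 / 4 * (ν.k z * ν.F₂ z)) +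
      2 * min (ν.En z ^ 2) 0 := rfl
  have e2 : min (ν.En z ^ 2) 0 = 0 := min_eq_right (sq_nonneg _)
  rw [e1, e2, mul_zero, add_zero]
  have x1 : F + L + 1 ≤ 3 * C * f := by linarith
  have x2 : b * (F + L + 1) ≤ b * (3 * C * f) := mul_le_mul_of_nonneg_left x1 hb
  have key : ∀ G : ℝ, 0 ≤ G → f ≤ C * G → b * (3 * C * f) ≤ 1 / 4 * (ν.k z * G) := by
    intro G hG hfG
    have y1 : b * (3 * C * f) ≤ b * (3 * C * (C * G)) := by gcongr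
    have y2 : b * (3 * C * (C * G)) = b * (12 * C ^ 2) * (G / 4) := by ring
    have y3 : b * (12 * C ^ 2) * (G / 4) ≤ 1 * (G / 4) :=
      mul_le_mul_of_nonneg_right h (by positivity)
    have y4 : G ≤ ν.k z * G := by nlinarith
    linarith
  exact x2.trans (le_min (key _ F10 f1) (key _ F20 f2))

/-- The core: `F, L ≤ C (N² + E (1 + m))`, `N + 1 + m ≤ C E^(1/2)`-type: `wB ≤ C E²`. -/
theorem g_MB (hc : 0 < c) (hE : 1 ≤ ν.En z) (hm : 0 ≤ ν.m z) (hN : 0 ≤ ν.N z) (hb : 0 ≤ b)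
    (hC : 1 ≤ C) (hF : F ≤ C * (ν.N z ^ 2 + ν.En z * (1 + ν.m z)))
    (hL : L ≤ C * (ν.N z ^ 2 + ν.En z * (1 + ν.m z))) (hmE : 1 + ν.m z ≤ ν.En z)
    (hNE : (ν.N z + 1 + ν.m z) ^ 2 ≤ C * ν.En z) (f1 : 0 ≤ ν.F₁ z) (f2 : 0 ≤ ν.F₂ z)
    (h : b * (5 * C ^ 2) ≤ 2 * c) : b * (F + L + 1) ≤ lw (MB ν c) z := by
  have hE0 : 0 < ν.En z := by linarith
  have hm1 : 0 < 1 + ν.m z := by linarith
  have w1 : ν.wB z = ν.En z * (ν.N z + 1 + ν.m z) ^ 2 / (1 + ν.m z) := rfl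
  -- lower bound of `wB`
  have w2 : ν.N z ^ 2 + ν.En z * (1 + ν.m z) ≤ ν.wB z := by
    rw [w1, le_div_iff₀ hm1]
    nlinarith [mul_nonneg (sq_nonneg (ν.N z)) (by linarith : 0 ≤ ν.En z - (1 + ν.m z)),
      mul_nonneg (mul_nonneg hE0.le hN) hm1.le]
  have w3 : ν.wB z ≤ C * ν.En z ^ 2 := by
    rw [w1, div_le_iff₀ hm1]
    have : ν.En z * (ν.N z + 1 + ν.m z) ^ 2 ≤ ν.En z * (C * ν.En z) :=
      mul_le_mul_of_nonneg_left hNE hE0.le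
    nlinarith [mul_nonneg (mul_nonneg (by linarith : (0:ℝ) ≤ C) (sq_nonneg (ν.En z))) hm]
  have w0 : 0 ≤ ν.wB z := by rw [w1]; positivity
  have e1 : lw (MB ν c) z = min (c * ν.F₁ z) (c * ν.F₂ z) +
      2 * min (c * ν.En z ^ 2) (c * ν.wB z) := rfl
  have e3 : 0 ≤ min (c * ν.F₁ z) (c * ν.F₂ z) := le_min (by positivity) (by positivity)
  have e4 : c * ν.wB z / C ≤ min (c * ν.En z ^ 2) (c * ν.wB z) := by
    have hC0 : 0 < C := by linarith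
    refine le_min ?_ ?_
    · rw [div_le_iff₀ hC0]; nlinarith
    · exact div_le_self (by positivity) hC
  rw [e1]
  have h1X : 1 ≤ ν.N z ^ 2 + ν.En z * (1 + ν.m z) := by
    nlinarith [sq_nonneg (ν.N z), mul_nonneg hE0.le hm]
  have x5 : F + L + 1 ≤ 3 * C * ν.wB z := by nlinarith
  have x8 : b * (F + L + 1) ≤ b * (3 * C * ν.wB z) := mul_le_mul_of_nonneg_left x5 hb
  have x9 : b * (3 * C * ν.wB z) ≤ 2 * (c * ν.wB z / C) := by
    have hC0 : 0 < C := by linarith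
    rw [mul_div_assoc', le_div_iff₀ hC0]
    have : b * (3 * C ^ 2) * ν.wB z ≤ 2 * c * ν.wB z :=
      mul_le_mul_of_nonneg_right (by nlinarith [mul_nonneg hb (sq_nonneg C)]) w0
    nlinarith
  linarith

/-- A letter with `B ≤ w₁`, `B ≤ w₂`, nonnegative `wb`, `wc`. -/
theorem g_of {M : Q8 E} {B : ℝ} (h1 : B ≤ M.w₁ z) (h2 : B ≤ M.w₂ z) (h3 : 0 ≤ M.wb z)
    (h4 : 0 ≤ M.wc z) (h : b * (F + L + 1) ≤ B) : b * (F + L + 1) ≤ lw M z := by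
  unfold lw
  have h5 : B ≤ min (M.w₁ z) (M.w₂ z) := le_min h1 h2
  have h6 : 0 ≤ min (M.wb z) (M.wc z) := le_min h3 h4
  linarith

/-- The tubes: `F, L ≤ C N²`. -/
theorem g_MT1 {N : E → ℝ} (hc : 0 ≤ c) (hN : 1 ≤ N z) (hb : 0 ≤ b) (hF : F ≤ C * N z ^ 2)
    (hL : L ≤ C * N z ^ 2) (h : b * (2 * C + 1) ≤ c) :
    b * (F + L + 1) ≤ lw (H509.PT.MT1 (E := E) c N) z := by
  refine g_of (B := c * N z ^ 2) le_rfl ?_ le_rfl le_rfl ?_
  · change c * N z ^ 2 ≤ c * N z ^ 3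
    have : N z ^ 2 ≤ N z ^ 3 := pow_le_pow_right₀ hN (by norm_num)
    gcongr
  · have h1 : F + L + 1 ≤ (2 * C + 1) * N z ^ 2 := by nlinarith [one_le_pow₀ (n := 2) hN]
    calc b * (F + L + 1) ≤ b * ((2 * C + 1) * N z ^ 2) := mul_le_mul_of_nonneg_left h1 hb
      _ = b * (2 * C + 1) * N z ^ 2 := by ring
      _ ≤ c * N z ^ 2 := mul_le_mul_of_nonneg_right h (sq_nonneg _)

theorem g_MT2 {N : E → ℝ} (hc : 0 ≤ c) (hN : 1 ≤ N z) (hb : 0 ≤ b) (hF : F ≤ C * N z ^ 2)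
    (hL : L ≤ C * N z ^ 2) (h : b * (2 * C + 1) ≤ c) :
    b * (F + L + 1) ≤ lw (H509.PT.MT2 (E := E) c N) z := by
  refine g_of (B := c * N z ^ 2) ?_ le_rfl le_rfl le_rfl ?_
  · change c * N z ^ 2 ≤ c * N z ^ 3
    have : N z ^ 2 ≤ N z ^ 3 := pow_le_pow_right₀ hN (by norm_num)
    gcongr
  · have h1 : F + L + 1 ≤ (2 * C + 1) * N z ^ 2 := by nlinarith [one_le_pow₀ (n := 2) hN]
    calc b * (F + L + 1) ≤ b * ((2 * C + 1) * N z ^ 2) := mul_le_mul_of_nonneg_left h1 hb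
      _ = b * (2 * C + 1) * N z ^ 2 := by ring
      _ ≤ c * N z ^ 2 := mul_le_mul_of_nonneg_right h (sq_nonneg _)

/-- Zone A: margin `m F_j / 3`; `F, L ≤ C f`, `1 ≤ C f`, `f ≤ C F_j`, `b` small against `m`. -/
theorem g_MA {ι : Type*} [Fintype ι] [NormedSpace ℝ E] {σ τ : Sl E ι} {W m : E → ℝ} {κ₀ f : ℝ}
    (hb : 0 ≤ b) (hC : 1 ≤ C) (hF : F ≤ C * f) (hL : L ≤ C * f)
    (h1 : 1 ≤ C * f) (f1 : f ≤ C * σ.F W z) (f2 : f ≤ C * τ.F W z)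
    (h : b * (9 * C ^ 2) ≤ m z) : b * (F + L + 1) ≤ lw (H747.SW.MA σ τ W m κ₀) z := by
  have hC0 : 0 < C := by linarith
  have hm0 : 0 ≤ m z := le_trans (by positivity) h
  have F10 : 0 ≤ σ.F W z := by
    by_contra hc
    have : C * σ.F W z ≤ 0 := mul_nonpos_of_nonneg_of_nonpos hC0.le (not_le.1 hc).le
    nlinarith
  have F20 : 0 ≤ τ.F W z := by
    by_contra hc
    have : C * τ.F W z ≤ 0 := mul_nonpos_of_nonneg_of_nonpos hC0.le (not_le.1 hc).le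
    nlinarith
  have x1 : F + L + 1 ≤ 3 * C * f := by linarith
  have x2 : b * (F + L + 1) ≤ b * (3 * C * f) := mul_le_mul_of_nonneg_left x1 hb
  have key : ∀ G : ℝ, 0 ≤ G → f ≤ C * G → b * (3 * C * f) ≤ 1 / 3 * (m z * G) := by
    intro G hG hfG
    have y1 : b * (3 * C * f) ≤ b * (3 * C * (C * G)) := by gcongr
    have y2 : b * (3 * C * (C * G)) = b * (9 * C ^ 2) * (G / 3) := by ring
    have y3 : b * (9 * C ^ 2) * (G / 3) ≤ m z * (G / 3) :=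
      mul_le_mul_of_nonneg_right h (by positivity)
    linarith
  exact g_of (B := b * (3 * C * f)) (key _ F10 f1) (key _ F20 f2) le_rfl le_rfl x2

end Vale.Agent.P088.R2.H935.G
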